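import Vale.Agent.P305.H607.Defs
import Vale.Agent.P305.H287.Defs
import Vale.Agent.P305.H529.Defs
import Vale.Agent.P305.H529.Ball.Defs
import Vale.Agent.P305.R2.H299.Defs
import Mathlib.LinearAlgebra.Matrix.Rank
import Mathlib.Algebra.MvPolynomial.Degrees

/-! Induced matchings outside a spanning subgraph, and covers of edges by the nonzero entries of
matrices of small rank. -/

set_option autoImplicit false

namespace Vale.Agent.P305.R2.H631

open Vale.Agent.P305 Vale.Agent.P305.H287 Vale.Agent.P305.H529 Vale.Agent.P305.H299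

/-- `a i - b i` (`i < k`) are edges of `G` that do not belong to `G₀`, no two of which have a
common endpoint or are joined by an edge of `G`. -/
def IsOffMatching {n : ℕ} (G G₀ : SimpleGraph (Fin n)) (k : ℕ) (a b : Fin k → Fin n) : Prop :=
  (∀ i, G.Adj (a i) (b i) ∧ ¬ G₀.Adj (a i) (b i)) ∧
  ∀ i j, i ≠ j → ∀ u ∈ ({a i, b i} : Set (Fin n)), ∀ v ∈ ({a j, b j} : Set (Fin n)),
    u ≠ v ∧ ¬ G.Adj u v

/-- The largest number of edges of an induced matching of `G` none of whose edges belongs to
`G₀`. -/
noncomputable def offMatching {n : ℕ} (G G₀ : SimpleGraph (Fin n)) : ℕ :=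
  sSup {k | ∃ a b : Fin k → Fin n, IsOffMatching G G₀ k a b}

/-- The least value of `offMatching G G₀` over all spanning subgraphs `G₀` of `G` in which no
component of `G` contains two disjoint, mutually non-adjacent (in `G₀`) odd cycles. -/
noncomputable def offNumber {n : ℕ} (G : SimpleGraph (Fin n)) : ℕ :=
  sInf {r | ∃ G₀ : SimpleGraph (Fin n), G₀ ≤ G ∧
    (∀ K : G.ConnectedComponent, oddPackingIn G₀ K.supp ≤ 1) ∧ offMatching G G₀ = r}

/-- There are finitely many matrices `M j`, over any fields, of total rank at most `r`, with one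
row for every vertex in `X` and one column for every vertex, such that vertices `u ∈ X` and
`v ≠ u` are adjacent in `H` iff one of the entries `M j u v` is not zero. (The entries `M j u u`
are arbitrary, the matrices need not be symmetric.) -/
def CoverRankAt {n : ℕ} (r : ℕ) (H : SimpleGraph (Fin n)) (X : Set (Fin n)) : Prop :=
  ∃ (k : ℕ) (F : Fin k → Type) (_ : ∀ j, Field (F j)) (M : ∀ j, Matrix X (Fin n) (F j)),
    (∀ (u : X) (v : Fin n), (u : Fin n) ≠ v → (H.Adj u v ↔ ∃ j, M j u v ≠ 0)) ∧
    ∑ j, (M j).rank ≤ r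

/-- Over some field, every vertex `v` has `s` polynomials `Q v j` in `d` variables, of degree at
most `D` in each variable, the vertices `u ∈ X` are points `x u` of `d`-dimensional space, and
`u ∈ X`, `v ≠ u` are adjacent in `H` iff one of the polynomials of `v` does not vanish at `x u`. -/
def IsAlgebraicAt (d D s : ℕ) {n : ℕ} (H : SimpleGraph (Fin n)) (X : Set (Fin n)) : Prop :=
  ∃ (F : Type) (_ : Field F) (x : Fin n → Fin d → F) (Q : Fin n → Fin s → MvPolynomial (Fin d) F),
    (∀ v j i, (Q v j).degreeOf i ≤ D) ∧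
    ∀ u ∈ X, ∀ v, u ≠ v → (H.Adj u v ↔ ∃ j, MvPolynomial.eval (x u) (Q v j) ≠ 0)

/-- The vertices are linear subspaces, of any dimensions, of an `N`-dimensional space over some
field; `u ∈ X`, `v ≠ u` are adjacent in `H` iff their subspaces intersect in `0` only. (In
projective language: points, lines, planes, ... of a projective space of dimension `N - 1`,
adjacent iff disjoint.) -/
def IsSkewAt (N : ℕ) {n : ℕ} (H : SimpleGraph (Fin n)) (X : Set (Fin n)) : Prop :=
  ∃ (F : Type) (_ : Field F) (W : Fin n → Submodule F (Fin N → F)),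
    ∀ u ∈ X, ∀ v, u ≠ v → (H.Adj u v ↔ Disjoint (W u) (W v))

/-- The pieces. `H` is a `c`-piece at `X` if its edges at `X` are the nonzero entries of matrices of
total rank at most `c`; or it is, at `X`, a graph of points and polynomials with
`s * (D + 1) ^ d ≤ c`, or a graph of skew subspaces with `4 ^ N ≤ c`; or all edges of `H` lie inside
a set `U` on which `H` is a disjointness graph of boxes of `c`-dimensional space, or of sets with at
most `s` elements with `(2 s - 1).choose s ≤ c`, or its edges join the pairs of points of `ℝ ^ d`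
whose distance is not one, with `d + 2 ≤ c`; or `H` has no induced matching with more than `c`
edges, all meeting `X`. -/
def IsPiece (c : ℕ) {n : ℕ} (H : SimpleGraph (Fin n)) (X : Set (Fin n)) : Prop :=
  CoverRankAt c H X ∨ (∃ d D s, s * (D + 1) ^ d ≤ c ∧ IsAlgebraicAt d D s H X) ∨
    (∃ N, 4 ^ N ≤ c ∧ IsSkewAt N H X) ∨
    (∃ U : Set (Fin n), (∀ u v, H.Adj u v → u ∈ U ∧ v ∈ U) ∧
      (IsCoBox c (H.induce U) ∨ (∃ s, (2 * s - 1).choose s ≤ c ∧ IsDisjointness s H U) ∨
        ∃ d, d + 2 ≤ c ∧ IsCoUnitDistance d H U)) ∨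
    inducedMatchingAt H X ≤ c

/-- `G` is the union of spanning subgraphs `G₀, H 0, ..., H (k-1)`; in no component of `G` does
`G₀` contain two disjoint, mutually non-adjacent (in `G₀`) odd cycles; and for `j < k` the graph
`H j` is a `c j`-piece at a set `X j` that meets all edges of `H j` outside `G₀`, where
`c 0 + ... + c (k-1) ≤ r`. -/
def IsUnionOfPieces (r : ℕ) {n : ℕ} (G : SimpleGraph (Fin n)) : Prop :=
  ∃ (G₀ : SimpleGraph (Fin n)) (k : ℕ) (H : Fin k → SimpleGraph (Fin n))
    (X : Fin k → Set (Fin n)) (c : Fin k → ℕ),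
    (∀ u v, G.Adj u v ↔ G₀.Adj u v ∨ ∃ j, (H j).Adj u v) ∧
    (∀ K : G.ConnectedComponent, oddPackingIn G₀ K.supp ≤ 1) ∧
    (∀ j u v, (H j).Adj u v → ¬ G₀.Adj u v → u ∈ X j ∨ v ∈ X j) ∧
    (∀ j, IsPiece (c j) (H j) (X j)) ∧ ∑ j, c j ≤ r

/-- `G` is the union of a disjointness graph of disks of a normed plane, of unit balls of
three-dimensional space, of arcs of a circle or of sets with at most two elements, and a
disjointness graph of boxes of `d`-dimensional space. -/
def IsCoCylinder (d : ℕ) {n : ℕ} (G : SimpleGraph (Fin n)) : Prop :=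
  ∃ G₀ B : SimpleGraph (Fin n), G = G₀ ⊔ B ∧
    (IsCoDisk G₀ ∨ IsCoBall G₀ ∨ IsCoArc G₀ ∨ IsDisjointness 2 G₀ Set.univ) ∧ IsCoBox d B

/-- The smaller one of `offNumber G` and half of the split number. -/
noncomputable def joinNumber {n : ℕ} (G : SimpleGraph (Fin n)) : ℕ :=
  min (offNumber G) (splitNumber G / 2)

end Vale.Agent.P305.R2.H631
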