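import Vale.Agent.P305.R2.H631.Off
import Vale.Agent.P305.R2.H299.Algo

/-! Boxes; the algorithmic consequences. -/

set_option autoImplicit false

namespace Vale.Agent.P305.R2.H631

open Vale.Agent.P305 Vale.Agent.P305.H287 Vale.Agent.P305.H529 Vale.Agent.P305.H299

/-- If all edges lie inside `U`. -/
theorem im_le_in {n : ℕ} {H : SimpleGraph (Fin n)} {U : Set (Fin n)}
    (hU : ∀ u v, H.Adj u v → u ∈ U ∧ v ∈ U) (X : Set (Fin n)) :
    inducedMatchingAt H X ≤ inducedMatchingIn H U :=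
  csSup_le ⟨0, fun i => i.elim0, fun i => i.elim0, fun i => i.elim0, fun i => i.elim0⟩
    fun _ ⟨a, b, hab⟩ => le_in (a := a) (b := b)
      (fun i => ⟨(hU _ _ (hab.1 i).2).1, (hU _ _ (hab.1 i).2).2, (hab.1 i).2⟩) hab.2

theorem IsPiece.le {c n : ℕ} {H : SimpleGraph (Fin n)} {X : Set (Fin n)} (h : IsPiece c H X) :
    inducedMatchingAt H X ≤ c := by
  rcases h with h | ⟨d, D, s, h1, h⟩ | ⟨N, h1, h⟩ | ⟨U, hU, h | ⟨s, hs, h⟩ | ⟨d, hd, h⟩⟩ | h
  · exact im_le_of_coverRankAt h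
  · exact (im_le_of_coverRankAt h.coverRankAt).trans h1
  · exact (im_le_of_coverRankAt h.coverRankAt).trans h1
  · exact (im_le_in hU X).trans (in_le_box H U h)
  · exact (im_le_in hU X).trans ((in_le_choose H U h).trans hs)
  · exact (im_le_in hU X).trans ((in_le_distance H U h).trans hd)
  · exact h

theorem offNumber_pieces {n r : ℕ} {G : SimpleGraph (Fin n)} (h : IsUnionOfPieces r G) :
    offNumber G ≤ r := by
  obtain ⟨G₀, k, H, X, c, h1, h2, h3, h4, h5⟩ := h
  have hle : G₀ ≤ G := fun u v h => (h1 u v).2 (Or.inl h)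
  refine (offNumber_le hle h2).trans ((off_le_sum G G₀ H X
    (fun j u v h => (h1 u v).2 (Or.inr ⟨j, h⟩)) fun u v h h' => ?_).trans
    ((Finset.sum_le_sum fun j _ => (h4 j).le).trans h5))
  obtain ⟨j, hj⟩ := ((h1 u v).1 h).resolve_left h'
  exact ⟨j, hj, h3 j u v hj h'⟩

theorem coDisk_induce {V : Type} {G : SimpleGraph V} (h : IsCoDisk G) (S : Set V) :
    IsCoDisk (G.induce S) := by
  obtain ⟨E, i1, i2, c, r, hE, hr, hadj⟩ := h
  refine ⟨E, i1, i2, fun v => c v, fun v => r v, hE, fun v => hr v, fun u v huv => ?_⟩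
  exact hadj u v (fun h => huv (Subtype.ext h))

theorem coBall_induce {V : Type} {G : SimpleGraph V} (h : IsCoBall G) (S : Set V) :
    IsCoBall (G.induce S) := by
  obtain ⟨c, hc⟩ := h
  exact ⟨fun v => c v, fun u v huv => hc u v fun h => huv (Subtype.ext h)⟩

theorem coArc_induce {V : Type} {G : SimpleGraph V} (h : IsCoArc G) (S : Set V) :
    IsCoArc (G.induce S) := by
  obtain ⟨l, u, h1, h2⟩ := h
  exact ⟨fun v => l v, fun v => u v, fun v => h1 v, fun a b hab =>
    h2 a b fun h => hab (Subtype.ext h)⟩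

theorem coBox_induce {V : Type} {d : ℕ} {G : SimpleGraph V} (h : IsCoBox d G) (S : Set V) :
    IsCoBox d (G.induce S) := by
  obtain ⟨l, u, h1, h2⟩ := h
  exact ⟨fun v => l v, fun v => u v, fun v => h1 v, fun a b hab =>
    h2 a b fun h => hab (Subtype.ext h)⟩

theorem pieces_cylinder {n d : ℕ} {G : SimpleGraph (Fin n)} (h : IsCoCylinder d G) :
    IsUnionOfPieces d G := by
  obtain ⟨G₀, B, rfl, h, hB⟩ := h
  refine ⟨G₀, 1, fun _ => B, fun _ => Set.univ, fun _ => d, fun u v => ?_, fun K => ?_,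
    fun j u v _ _ => Or.inl (Set.mem_univ u), fun _ => Or.inr (Or.inr (Or.inr (Or.inl
      ⟨Set.univ, fun u v _ => ⟨Set.mem_univ u, Set.mem_univ v⟩, Or.inl (coBox_induce hB _)⟩))),
    by simp⟩
  · simp
  · rcases h with h | h | h | h
    · exact in_codisk G₀ _ (coDisk_induce h _)
    · exact in_coball G₀ _ (coBall_induce h _)
    · exact in_coarc G₀ _ (coArc_induce h _)
    · obtain ⟨S, hS⟩ := h
      exact in_le_one_of_pairs G₀ _ ⟨S, fun u _ => ⟨(hS u (Set.mem_univ u)).1,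
        fun v _ => (hS u (Set.mem_univ u)).2 v (Set.mem_univ v)⟩⟩

/-- The parameter is at most the known one: induced matchings of edges meeting `X`. -/
theorem offNumber_le_im {n : ℕ} (G : SimpleGraph (Fin n)) (X : Set (Fin n))
    (h : ∀ K : G.ConnectedComponent, oddPackingIn G (K.supp \ X) ≤ 1) :
    offNumber G ≤ inducedMatchingAt G X := by
  classical
  let G₀ : SimpleGraph (Fin n) :=
    { Adj := fun u v => G.Adj u v ∧ u ∉ X ∧ v ∉ X
      symm := ⟨fun u v h => ⟨h.1.symm, h.2.2, h.2.1⟩⟩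
      loopless := ⟨fun u h => h.1.ne rfl⟩ }
  have hle : G₀ ≤ G := fun u v h => h.1
  refine (offNumber_le (G₀ := G₀) hle fun K => ?_).trans (off_le fun k a b hab => ?_)
  · refine le_trans ?_ (h K)
    obtain ⟨S, hSU, hS⟩ := exists_oddPackingIn G₀ K.supp
    refine le_oddPackingIn (S := fun i => S i \ X) (fun i v hv => ⟨hSU i hv.1, hv.2⟩)
      ⟨fun i hbip => ?_, fun i j hij u hu v hv => ?_⟩
    · refine hS.1 i (bip_of_no_edge G₀ X (S i) (fun u _ v _ hu hadj => hadj.2.1 hu) ?_)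
      obtain ⟨col⟩ := hbip
      exact ⟨SimpleGraph.Coloring.mk (fun v => col v)
        (fun {u v} huv => col.valid (v := u) (w := v) (by
          have h1 : G₀.Adj (u : Fin n) v := huv
          exact h1.1))⟩
    · have h1 := hS.2 i j hij u hu.1 v hv.1
      exact ⟨h1.1, fun h2 => h1.2 ⟨h2, hu.2, hv.2⟩⟩
  · have hex : ∀ i, ∃ p : Fin n × Fin n, (p = (a i, b i) ∨ p = (b i, a i)) ∧ p.1 ∈ X := by
      intro i
      by_cases h1 : a i ∈ X
      · exact ⟨_, Or.inl rfl, h1⟩
      · by_cases h2 : b i ∈ X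
        · exact ⟨_, Or.inr rfl, h2⟩
        · exact absurd ⟨(hab.1 i).1, h1, h2⟩ (hab.1 i).2
    choose p hp hpX using hex
    have hmem : ∀ i, (p i).1 ∈ ({a i, b i} : Set (Fin n)) ∧
        (p i).2 ∈ ({a i, b i} : Set (Fin n)) := by
      intro i
      rcases hp i with h1 | h1 <;> rw [h1] <;> simp
    refine IsInducedMatchingAt.le (a := fun i => (p i).1) (b := fun i => (p i).2)
      ⟨fun i => ⟨hpX i, ?_⟩, fun i j hij u hu v hv => ?_⟩
    · show G.Adj (p i).1 (p i).2
      rcases hp i with h1 | h1 <;> rw [h1]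
      · exact (hab.1 i).1
      · exact (hab.1 i).1.symm
    · refine hab.2 i j hij u ?_ v ?_
      · rcases hu with rfl | hu
        · exact (hmem i).1
        · rw [Set.mem_singleton_iff] at hu
          subst hu
          exact (hmem i).2
      · rcases hv with rfl | hv
        · exact (hmem j).1
        · rw [Set.mem_singleton_iff] at hv
          subst hv
          exact (hmem j).2

theorem searches_le_join {n : ℕ} (G : SimpleGraph (Fin n)) : searches G ≤ joinNumber G := by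
  have h1 := searches_le_offNumber G
  have h2 := two_mul_searches_le_split G
  exact le_min h1 (by omega)

theorem off_le_split {n : ℕ} (G : SimpleGraph (Fin n)) : offNumber G ≤ splitNumber G := by
  obtain ⟨F, hF, hk⟩ := Nat.sInf_mem (split_nonempty G)
  have hk' : splitNumber G = inducedMatchingOf G F := hk
  rw [hk']
  refine (offNumber_le (G₀ := G \ F) sdiff_le fun K => ?_).trans (off_le fun k a b hab => ?_)
  · obtain ⟨col⟩ := hF
    rw [in_bip (G \ F) K.supp
      ⟨SimpleGraph.Coloring.mk (fun v => col v) fun {u v} huv => col.valid huv⟩]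
    exact Nat.zero_le 1
  · refine le_of (fun i => ⟨?_, (hab.1 i).1⟩) hab.2
    by_contra h
    exact (hab.1 i).2 ⟨(hab.1 i).1, h⟩

theorem join_reduction (T : ℕ → ℕ → ℕ)
    (hT : ∀ n n' m m', n ≤ n' → m ≤ m' → T n m ≤ T n' m')
    (hP : ∃ P, Solves P (fun _ G => G.IsBipartite) (fun n G => T n G.edgeSet.ncard)) :
    ∃ P C, Solves P (fun _ _ => True) (fun n G => C * (T (2 * n) (2 * G.edgeSet.ncard) +
      (joinNumber G + 1) * ((Nat.log 2 n + 1) * (n + G.edgeSet.ncard + 1)))) := by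
  obtain ⟨P, C, h⟩ := comp_reduction T hT hP
  refine ⟨P, C, h.mono (fun _ _ _ => trivial) fun n G _ => ?_⟩
  refine Nat.mul_le_mul_left _ (Nat.add_le_add_left (Nat.mul_le_mul_right _ ?_) _)
  exact Nat.succ_le_succ (searches_le_join G)

theorem join_approx (T : ℕ → ℕ → ℕ)
    (hT : ∀ n n' m m', n ≤ n' → m ≤ m' → T n m ≤ T n' m')
    (hP : ∃ P, Solves P (fun _ G => G.IsBipartite) (fun n G => T n G.edgeSet.ncard)) :
    ∃ P C, SolvesUpTo P (fun _ G => joinNumber G) (fun n G =>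
      C * (T (2 * n) (2 * G.edgeSet.ncard) + n + G.edgeSet.ncard + 1)) := by
  obtain ⟨P, C, h⟩ := apx_reductionW T hT hP
  exact ⟨P, C, SolvesUpTo.mono h (fun n G => searches_le_join G) fun _ _ => le_rfl⟩

theorem join_almostLinear (hB : AlmostLinear fun _ G => G.IsBipartite) (κ : ℕ → ℕ)
    (hκ : ∀ ε : ℝ, 0 < ε → ∃ c : ℝ, ∀ N : ℕ, (κ N : ℝ) ≤ c * ((N : ℝ) + 1) ^ ε) :
    AlmostLinear fun n G => joinNumber G ≤ κ (n + G.edgeSet.ncard) := by
  obtain ⟨P, T, hP, hT⟩ := comp_almostLinear hB κ hκ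
  refine ⟨P, T, hP.mono ?_ fun _ _ _ => le_rfl, hT⟩
  intro n G h
  exact (searches_le_join G).trans h

theorem pieces_almostLinear (hB : AlmostLinear fun _ G => G.IsBipartite) (κ : ℕ → ℕ)
    (hκ : ∀ ε : ℝ, 0 < ε → ∃ c : ℝ, ∀ N : ℕ, (κ N : ℝ) ≤ c * ((N : ℝ) + 1) ^ ε) :
    AlmostLinear fun n G => IsUnionOfPieces (κ (n + G.edgeSet.ncard)) G := by
  obtain ⟨P, T, hP, hT⟩ := join_almostLinear hB κ hκ
  exact ⟨P, T, hP.mono (fun n G h => (min_le_left _ _).trans (offNumber_pieces h))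
    fun _ _ _ => le_rfl, hT⟩

end Vale.Agent.P305.R2.H631
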