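import Vale.Agent.P305.R2.H631.Skew

/-! Induced matchings outside a spanning subgraph: the surplus, and matrices. -/

set_option autoImplicit false

namespace Vale.Agent.P305.R2.H631

open Vale.Agent.P305 Vale.Agent.P305.H287 Vale.Agent.P305.H529

theorem off_bdd {n : ℕ} (G G₀ : SimpleGraph (Fin n)) :
    BddAbove {k | ∃ a b : Fin k → Fin n, IsOffMatching G G₀ k a b} := by
  refine ⟨n, ?_⟩
  rintro k ⟨a, b, h⟩
  have hinj : Function.Injective a := by
    intro i j hij
    by_contra hne
    exact (h.2 i j hne (a i) (by simp) (a j) (by simp)).1 hij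
  simpa using Fintype.card_le_of_injective a hinj

theorem IsOffMatching.le {n k : ℕ} {G G₀ : SimpleGraph (Fin n)} {a b : Fin k → Fin n}
    (h : IsOffMatching G G₀ k a b) : k ≤ offMatching G G₀ :=
  le_csSup (off_bdd G G₀) ⟨a, b, h⟩

theorem off_le {n c : ℕ} {G G₀ : SimpleGraph (Fin n)}
    (h : ∀ (k : ℕ) (a b : Fin k → Fin n), IsOffMatching G G₀ k a b → k ≤ c) :
    offMatching G G₀ ≤ c :=
  csSup_le ⟨0, fun i => i.elim0, fun i => i.elim0, fun i => i.elim0, fun i => i.elim0⟩
    fun k ⟨a, b, hab⟩ => h k a b hab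

theorem card_le_off {n : ℕ} (G G₀ : SimpleGraph (Fin n))
    (M : Finset (Fin n × Fin n)) (h1 : ∀ p ∈ M, G.Adj p.1 p.2 ∧ ¬ G₀.Adj p.1 p.2)
    (h2 : ∀ p ∈ M, ∀ q ∈ M, p ≠ q → ∀ u ∈ ({p.1, p.2} : Set (Fin n)),
      ∀ v ∈ ({q.1, q.2} : Set (Fin n)), u ≠ v ∧ ¬ G.Adj u v) :
    M.card ≤ offMatching G G₀ := by
  let e := M.equivFin
  exact IsOffMatching.le (a := fun i => (e.symm i).1.1) (b := fun i => (e.symm i).1.2)
    ⟨fun i => h1 _ (e.symm i).2, fun i j hij => h2 _ (e.symm i).2 _ (e.symm j).2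
      (fun h => hij (e.symm.injective (Subtype.ext h)))⟩

/-- The members of a packing which contain an edge outside `G₀` give an induced matching. -/
theorem split_off {n k : ℕ} (G G₀ : SimpleGraph (Fin n)) (hle : G₀ ≤ G) (Y : Set (Fin n))
    (S : Fin k → Set (Fin n)) (hY : ∀ i, S i ⊆ Y) (hS : IsOddPacking G k S) :
    ∃ M : Finset (Fin n × Fin n),
      (∀ p ∈ M, G.Adj p.1 p.2 ∧ ¬ G₀.Adj p.1 p.2) ∧ (∀ p ∈ M, p.1 ∈ Y ∧ p.2 ∈ Y) ∧
      (∀ p ∈ M, ∀ q ∈ M, p ≠ q → ∀ u ∈ ({p.1, p.2} : Set (Fin n)),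
        ∀ v ∈ ({q.1, q.2} : Set (Fin n)), u ≠ v ∧ ¬ G.Adj u v) ∧
      k ≤ M.card + oddPackingIn G₀ Y := by
  classical
  let A : Finset (Fin k) :=
    Finset.univ.filter fun i => ∃ u ∈ S i, ∃ v ∈ S i, G.Adj u v ∧ ¬ G₀.Adj u v
  have h1 : ∀ i : A, ∃ u ∈ S i, ∃ v ∈ S i, G.Adj u v ∧ ¬ G₀.Adj u v := by
    rintro ⟨i, hi⟩
    exact (Finset.mem_filter.1 hi).2
  choose f hf g hg hfg using h1
  have hinj : Function.Injective fun i => (f i, g i) := by
    intro i j hij
    by_contra hne
    exact (hS.2 i j (fun h => hne (Subtype.ext h)) (f i) (hf i) (f j) (hf j)).1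
      (congrArg Prod.fst hij)
  refine ⟨Finset.univ.image fun i => (f i, g i), ?_, ?_, ?_, ?_⟩
  · intro p hp
    obtain ⟨i, -, rfl⟩ := Finset.mem_image.1 hp
    exact hfg i
  · intro p hp
    obtain ⟨i, -, rfl⟩ := Finset.mem_image.1 hp
    exact ⟨hY _ (hf i), hY _ (hg i)⟩
  · intro p hp q hq hpq u hu v hv
    obtain ⟨i, -, rfl⟩ := Finset.mem_image.1 hp
    obtain ⟨j, -, rfl⟩ := Finset.mem_image.1 hq
    have hne : (i : Fin k) ≠ j := fun h => hpq (by rw [Subtype.ext h])
    have hu' : u ∈ S i := by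
      rcases hu with rfl | hu
      · exact hf _
      · rw [Set.mem_singleton_iff] at hu
        subst hu
        exact hg _
    have hv' : v ∈ S j := by
      rcases hv with rfl | hv
      · exact hf _
      · rw [Set.mem_singleton_iff] at hv
        subst hv
        exact hg _
    exact hS.2 _ _ hne u hu' v hv'
  · rw [Finset.card_image_of_injective _ hinj, Finset.card_univ, Fintype.card_coe]
    have hB : Aᶜ.card ≤ oddPackingIn G₀ Y := by
      let e := (Aᶜ).equivFin
      refine le_oddPackingIn (S := fun i => S (e.symm i)) (fun i => hY _)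
        ⟨fun i hbip => ?_, fun i j hij u hu v hv => ?_⟩
      · have h2 := (e.symm i).2
        rw [Finset.mem_compl] at h2
        refine hS.1 (e.symm i) ?_
        obtain ⟨col⟩ := hbip
        refine ⟨SimpleGraph.Coloring.mk (fun v => col v) ?_⟩
        intro u v huv
        have h3 : G.Adj (u : Fin n) v := huv
        have h4 : G₀.Adj (u : Fin n) v := by
          by_contra h5
          exact h2 (Finset.mem_filter.2 ⟨Finset.mem_univ _, u, u.2, v, v.2, h3, h5⟩)
        exact col.valid (v := u) (w := v) h4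
      · have h2 := hS.2 _ _ (fun h => hij (e.symm.injective (Subtype.ext h))) u hu v hv
        exact ⟨h2.1, fun h3 => h2.2 (hle h3)⟩
    have hcard := Finset.card_add_card_compl A
    rw [Fintype.card_fin] at hcard
    omega

theorem in_le_off {n : ℕ} (G G₀ : SimpleGraph (Fin n)) (hle : G₀ ≤ G) (Y : Set (Fin n)) :
    oddPackingIn G Y ≤ oddPackingIn G₀ Y + offMatching G G₀ := by
  obtain ⟨S, hSU, hS⟩ := exists_oddPackingIn G Y
  obtain ⟨M, h1, -, h2, h3⟩ := split_off G G₀ hle Y S hSU hS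
  have := card_le_off G G₀ M h1 h2
  omega

theorem surplus_le_off {n : ℕ} (G G₀ : SimpleGraph (Fin n)) (hle : G₀ ≤ G)
    (h : ∀ K : G.ConnectedComponent, oddPackingIn G₀ K.supp ≤ 1) :
    surplus G ≤ offMatching G G₀ := by
  classical
  have hex : ∀ K : G.ConnectedComponent, ∃ M : Finset (Fin n × Fin n),
      (∀ p ∈ M, G.Adj p.1 p.2 ∧ ¬ G₀.Adj p.1 p.2) ∧ (∀ p ∈ M, p.1 ∈ K.supp ∧ p.2 ∈ K.supp) ∧
      (∀ p ∈ M, ∀ q ∈ M, p ≠ q → ∀ u ∈ ({p.1, p.2} : Set (Fin n)),
        ∀ v ∈ ({q.1, q.2} : Set (Fin n)), u ≠ v ∧ ¬ G.Adj u v) ∧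
      oddPackingIn G K.supp ≤ M.card + oddPackingIn G₀ K.supp := by
    intro K
    obtain ⟨S, hSU, hS⟩ := exists_oddPackingIn G K.supp
    exact split_off G G₀ hle K.supp S hSU hS
  choose M h1 h2 h3 h4 using hex
  unfold surplus
  refine le_trans (Finset.sum_le_sum (g := fun K : G.ConnectedComponent => (M K).card) ?_) ?_
  · intro K _
    have e1 := matchedIn_le_assignedIn G K.supp
    have e2 := h4 K
    have e3 := h K
    have e4 : oddPackingIn G K.supp + matchedIn G K.supp - assignedIn G K.supp ≤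
        (M K).card + 1 := by omega
    have e5 : ((M K).card + 1) / 2 ≤ (M K).card := by omega
    exact (Nat.div_le_div_right e4).trans e5
  · rw [← Finset.card_biUnion]
    · refine card_le_off G G₀ _ ?_ ?_
      · intro p hp
        obtain ⟨K, -, hK⟩ := Finset.mem_biUnion.1 hp
        exact h1 K p hK
      · intro p hp q hq hpq u hu v hv
        obtain ⟨K, -, hK⟩ := Finset.mem_biUnion.1 hp
        obtain ⟨L, -, hL⟩ := Finset.mem_biUnion.1 hq
        by_cases hKL : K = L
        · subst hKL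
          exact h3 K p hK q hL hpq u hu v hv
        · have k1 : G.connectedComponentMk u = K := by
            rcases hu with rfl | hu
            · exact (h2 K p hK).1
            · rw [Set.mem_singleton_iff] at hu
              subst hu
              exact (h2 K p hK).2
          have k2 : G.connectedComponentMk v = L := by
            rcases hv with rfl | hv
            · exact (h2 L q hL).1
            · rw [Set.mem_singleton_iff] at hv
              subst hv
              exact (h2 L q hL).2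
          refine ⟨?_, fun hadj => ?_⟩
          · rintro rfl
            exact hKL (k1.symm.trans k2)
          · refine hKL ?_
            rw [← k1, ← k2]
            exact SimpleGraph.ConnectedComponent.sound hadj.reachable
    · intro K _ L _ hKL
      rw [Function.onFun, Finset.disjoint_left]
      intro p hp hp'
      have k1 : G.connectedComponentMk p.1 = K := (h2 K p hp).1
      have k2 : G.connectedComponentMk p.1 = L := (h2 L p hp').1
      exact hKL (k1.symm.trans k2)

theorem offNumber_mem {n : ℕ} (G : SimpleGraph (Fin n)) :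
    ∃ G₀ : SimpleGraph (Fin n), G₀ ≤ G ∧
      (∀ K : G.ConnectedComponent, oddPackingIn G₀ K.supp ≤ 1) ∧
      offMatching G G₀ = offNumber G := by
  have hne : {r | ∃ G₀ : SimpleGraph (Fin n), G₀ ≤ G ∧
      (∀ K : G.ConnectedComponent, oddPackingIn G₀ K.supp ≤ 1) ∧
      offMatching G G₀ = r}.Nonempty := by
    refine ⟨_, ⊥, bot_le, fun K => ?_, rfl⟩
    have h1 : ((⊥ : SimpleGraph (Fin n)).induce K.supp).IsBipartite :=
      ⟨SimpleGraph.Coloring.mk (fun _ => (0 : Fin 2)) (fun {u v} huv => absurd huv (by simp))⟩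
    rw [in_bip _ _ h1]
    exact Nat.zero_le 1
  exact Nat.sInf_mem hne

theorem offNumber_le {n : ℕ} {G G₀ : SimpleGraph (Fin n)} (hle : G₀ ≤ G)
    (h : ∀ K : G.ConnectedComponent, oddPackingIn G₀ K.supp ≤ 1) :
    offNumber G ≤ offMatching G G₀ :=
  Nat.sInf_le ⟨G₀, hle, h, rfl⟩

theorem searches_le_offNumber {n : ℕ} (G : SimpleGraph (Fin n)) : searches G ≤ offNumber G := by
  obtain ⟨G₀, hle, h, he⟩ := offNumber_mem G
  rw [← he]
  exact (searches_le_surplus G).trans (surplus_le_off G G₀ hle h)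

/-- Subgraphs covering the edges outside `G₀`. -/
theorem off_le_sum {n k : ℕ} (G G₀ : SimpleGraph (Fin n)) (H : Fin k → SimpleGraph (Fin n))
    (X : Fin k → Set (Fin n)) (hle : ∀ j, H j ≤ G)
    (h : ∀ u v, G.Adj u v → ¬ G₀.Adj u v → ∃ j, (H j).Adj u v ∧ (u ∈ X j ∨ v ∈ X j)) :
    offMatching G G₀ ≤ ∑ j, inducedMatchingAt (H j) (X j) := by
  classical
  refine off_le fun K a b hab => ?_
  have hex : ∀ i, ∃ p : Fin n × Fin n, ∃ j, (p.1 ∈ ({a i, b i} : Set (Fin n)) ∧
      p.2 ∈ ({a i, b i} : Set (Fin n))) ∧ p.1 ∈ X j ∧ (H j).Adj p.1 p.2 := by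
    intro i
    obtain ⟨j, h1, h2 | h2⟩ := h _ _ (hab.1 i).1 (hab.1 i).2
    · exact ⟨⟨a i, b i⟩, j, ⟨by simp, by simp⟩, h2, h1⟩
    · exact ⟨⟨b i, a i⟩, j, ⟨by simp, by simp⟩, h2, h1.symm⟩
  choose p c hp hc using hex
  have h1 : ∀ j, (Finset.univ.filter fun i => c i = j).card ≤
      inducedMatchingAt (H j) (X j) := by
    intro j
    let e := (Finset.univ.filter fun i => c i = j).equivFin
    refine IsInducedMatchingAt.le (a := fun i => (p (e.symm i)).1)
      (b := fun i => (p (e.symm i)).2) ⟨fun i => ?_, fun i i' hne u hu v hv => ?_⟩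
    · obtain ⟨-, h2⟩ := Finset.mem_filter.1 (e.symm i).2
      have h3 := hc (e.symm i)
      rwa [h2] at h3
    · have hu' : u ∈ ({a (e.symm i), b (e.symm i)} : Set (Fin n)) := by
        rcases hu with rfl | hu
        · exact (hp _).1
        · rw [Set.mem_singleton_iff] at hu
          subst hu
          exact (hp _).2
      have hv' : v ∈ ({a (e.symm i'), b (e.symm i')} : Set (Fin n)) := by
        rcases hv with rfl | hv
        · exact (hp _).1
        · rw [Set.mem_singleton_iff] at hv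
          subst hv
          exact (hp _).2
      have h2 := hab.2 (e.symm i) (e.symm i')
        (fun h => hne (e.symm.injective (Subtype.ext h))) u hu' v hv'
      exact ⟨h2.1, fun h3 => h2.2 (hle j h3)⟩
  have h2 : K = ∑ j, (Finset.univ.filter fun i => c i = j).card := by
    have h3 := Finset.card_eq_sum_card_fiberwise (s := (Finset.univ : Finset (Fin K)))
      (t := Finset.univ) (f := c) (fun i _ => Finset.mem_coe.2 (Finset.mem_univ _))
    rwa [Finset.card_univ, Fintype.card_fin] at h3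
  rw [h2]
  exact Finset.sum_le_sum fun j _ => h1 j

end Vale.Agent.P305.R2.H631
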