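import Vale.Agent.P305.R2.H631.Defs
import Vale.Agent.P305.H529.Ball.Final

/-! Induced matchings, packings and the rank of matrices. -/

set_option autoImplicit false

namespace Vale.Agent.P305.R2.H631

open Vale.Agent.P305 Vale.Agent.P305.H287 Vale.Agent.P305.H529

/-- A diagonal submatrix with nonzero diagonal entries. -/
theorem card_le_rank {F ρ γ ι : Type} [Field F] [Fintype γ] [Finite ρ] (A : Matrix ρ γ F)
    (I : Finset ι) (f : ι → ρ) (g : ι → γ) (hd : ∀ i ∈ I, A (f i) (g i) ≠ 0)
    (ho : ∀ i ∈ I, ∀ i' ∈ I, i ≠ i' → A (f i) (g i') = 0) : I.card ≤ A.rank := by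
  classical
  have hli : LinearIndependent F (fun i : I => A (f i)) := by
    rw [Fintype.linearIndependent_iff]
    intro c hc i
    have h1 := congrFun hc (g i)
    simp only [Finset.sum_apply, Pi.smul_apply, smul_eq_mul, Pi.zero_apply] at h1
    rw [Finset.sum_eq_single i] at h1
    · exact (mul_eq_zero.1 h1).resolve_right (hd i i.2)
    · intro i' _ hne
      rw [ho i' i'.2 i i.2 (fun h => hne (Subtype.ext h)), mul_zero]
    · intro h
      exact absurd (Finset.mem_univ i) h
  rw [Matrix.rank_eq_finrank_span_row]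
  have h2 := finrank_span_eq_card hli
  rw [Fintype.card_coe] at h2
  rw [← h2]
  refine Submodule.finrank_mono (Submodule.span_mono ?_)
  rintro _ ⟨i, rfl⟩
  exact ⟨f i, rfl⟩

/-- A matrix whose entries are sums of `|τ|` products of a function of the row and a function of
the column has rank at most `|τ|`. -/
theorem rank_le_of_sum {F ρ γ τ : Type} [Field F] [Fintype γ] [Fintype τ] (A : Matrix ρ γ F)
    (a : ρ → τ → F) (b : τ → γ → F) (h : ∀ u v, A u v = ∑ t, a u t * b t v) :
    A.rank ≤ Fintype.card τ := by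
  have h1 : A = (Matrix.of a) * (Matrix.of b) := by
    ext u v
    rw [Matrix.mul_apply, h]
    rfl
  rw [h1]
  exact (Matrix.rank_mul_le_left _ _).trans (Matrix.rank_le_card_width _)

/-- An induced matching of edges meeting `X` has at most as many edges as the total rank of
matrices covering these edges. -/
theorem im_le_of_coverRankAt {n r : ℕ} {G : SimpleGraph (Fin n)} {X : Set (Fin n)}
    (h : CoverRankAt r G X) : inducedMatchingAt G X ≤ r := by
  classical
  obtain ⟨k, F, iF, M, hM, hr⟩ := h
  refine csSup_le ⟨0, fun i => i.elim0, fun i => i.elim0, fun i => i.elim0, fun i => i.elim0⟩ ?_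
  rintro K ⟨a, b, hab⟩
  have hex : ∀ i, ∃ j, M j ⟨a i, (hab.1 i).1⟩ (b i) ≠ 0 := fun i =>
    (hM ⟨a i, (hab.1 i).1⟩ (b i) (hab.1 i).2.ne).1 (hab.1 i).2
  choose c hc using hex
  have h1 : ∀ j, (Finset.univ.filter fun i => c i = j).card ≤ (M j).rank := by
    intro j
    refine card_le_rank (M j) _ (fun i => ⟨a i, (hab.1 i).1⟩) b ?_ ?_
    · intro i hi
      obtain ⟨-, rfl⟩ := Finset.mem_filter.1 hi
      exact hc i
    · intro i _ i' _ hne
      have h2 := hab.2 i i' hne (a i) (by simp) (b i') (by simp)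
      by_contra h3
      exact h2.2 ((hM ⟨a i, (hab.1 i).1⟩ (b i') h2.1).2 ⟨j, h3⟩)
  have h2 : K = ∑ j, (Finset.univ.filter fun i => c i = j).card := by
    have h3 := Finset.card_eq_sum_card_fiberwise (s := (Finset.univ : Finset (Fin K)))
      (t := Finset.univ) (f := c) (fun i _ => Finset.mem_coe.2 (Finset.mem_univ _))
    rwa [Finset.card_univ, Fintype.card_fin] at h3
  rw [h2]
  exact (Finset.sum_le_sum fun j _ => h1 j).trans hr

/-- A cover of the edges meeting `X` by subgraphs. -/
theorem im_le_sum {n k : ℕ} (G : SimpleGraph (Fin n)) (X : Set (Fin n))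
    (H : Fin k → SimpleGraph (Fin n)) (hle : ∀ j, H j ≤ G)
    (h : ∀ u ∈ X, ∀ v, G.Adj u v → ∃ j, (H j).Adj u v) :
    inducedMatchingAt G X ≤ ∑ j, inducedMatchingAt (H j) X := by
  classical
  refine csSup_le ⟨0, fun i => i.elim0, fun i => i.elim0, fun i => i.elim0, fun i => i.elim0⟩ ?_
  rintro K ⟨a, b, hab⟩
  have hex : ∀ i, ∃ j, (H j).Adj (a i) (b i) := fun i => h _ (hab.1 i).1 _ (hab.1 i).2
  choose c hc using hex
  have h1 : ∀ j, (Finset.univ.filter fun i => c i = j).card ≤ inducedMatchingAt (H j) X := by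
    intro j
    let e := (Finset.univ.filter fun i => c i = j).equivFin
    refine IsInducedMatchingAt.le (a := fun i => a (e.symm i)) (b := fun i => b (e.symm i))
      ⟨fun i => ⟨(hab.1 _).1, ?_⟩, fun i i' hne u hu v hv => ?_⟩
    · obtain ⟨-, h2⟩ := Finset.mem_filter.1 (e.symm i).2
      have h3 := hc (e.symm i)
      rwa [h2] at h3
    · have h2 := hab.2 (e.symm i) (e.symm i')
        (fun h => hne (e.symm.injective (Subtype.ext h))) u hu v hv
      exact ⟨h2.1, fun h3 => h2.2 (hle j h3)⟩
  have h2 : K = ∑ j, (Finset.univ.filter fun i => c i = j).card := by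
    have h3 := Finset.card_eq_sum_card_fiberwise (s := (Finset.univ : Finset (Fin K)))
      (t := Finset.univ) (f := c) (fun i _ => Finset.mem_coe.2 (Finset.mem_univ _))
    rwa [Finset.card_univ, Fintype.card_fin] at h3
  rw [h2]
  exact Finset.sum_le_sum fun j _ => h1 j

/-- Points and polynomials. -/
theorem IsAlgebraicAt.coverRankAt {n d D s : ℕ} {G : SimpleGraph (Fin n)} {X : Set (Fin n)}
    (h : IsAlgebraicAt d D s G X) : CoverRankAt (s * (D + 1) ^ d) G X := by
  classical
  obtain ⟨F, iF, x, Q, hD, hadj⟩ := h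
  refine ⟨s, fun _ => F, fun _ => iF, fun j => Matrix.of fun (u : X) v =>
    MvPolynomial.eval (x u) (Q v j), fun u v huv => hadj u u.2 v huv, ?_⟩
  have h1 : ∀ j : Fin s, (Matrix.of fun (u : X) v => MvPolynomial.eval (x u) (Q v j)).rank ≤
      (D + 1) ^ d := by
    intro j
    have hc : Fintype.card (Fin d → Fin (D + 1)) = (D + 1) ^ d := by simp
    rw [← hc]
    refine rank_le_of_sum _ (fun u t => ∏ i, x u i ^ (t i : ℕ))
      (fun t v => MvPolynomial.coeff (Finsupp.equivFunOnFinite.symm fun i => (t i : ℕ)) (Q v j)) ?_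
    intro u v
    rw [Matrix.of_apply, MvPolynomial.eval_eq']
    symm
    refine Finset.sum_bij_ne_zero
      (fun t _ _ => (Finsupp.equivFunOnFinite.symm fun i => (t i : ℕ) : Fin d →₀ ℕ)) ?_ ?_ ?_ ?_
    · intro t _ ht
      rw [MvPolynomial.mem_support_iff]
      intro h0
      exact ht (by rw [h0, mul_zero])
    · intro t _ _ t' _ _ htt
      funext i
      have := DFunLike.congr_fun htt i
      exact Fin.ext this
    · intro m hm hne
      refine ⟨fun i => ⟨m i, Nat.lt_succ_of_le ((MvPolynomial.monomial_le_degreeOf i hm).trans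
        (hD v j i))⟩, Finset.mem_univ _, ?_, ?_⟩
      · have e1 : (Finsupp.equivFunOnFinite.symm fun i => m i : Fin d →₀ ℕ) = m := by
          ext i
          rfl
        simp only [e1]
        rwa [mul_comm]
      · ext i
        rfl
    · intro t _ _
      rw [mul_comm]
      rfl
  calc _ ≤ ∑ _j : Fin s, (D + 1) ^ d := Finset.sum_le_sum fun j _ => h1 j
    _ = _ := by simp

end Vale.Agent.P305.R2.H631
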