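import Vale.Agent.P305.R2.H631.Rank
import Mathlib.LinearAlgebra.ExteriorPower.Basis

/-! Skew subspaces. -/

set_option autoImplicit false

namespace Vale.Agent.P305.R2.H631

open Vale.Agent.P305 Vale.Agent.P305.H287 Vale.Agent.P305.H529

theorem iMulti_ne_zero_iff {F V : Type} [Field F] [AddCommGroup V] [Module F V] {m : ℕ}
    (v : Fin m → V) : ExteriorAlgebra.ιMulti F m v ≠ 0 ↔ LinearIndependent F v := by
  constructor
  · intro h
    by_contra h2
    exact h (AlternatingMap.map_linearDependent _ v h2)
  · intro h h0
    have h1 := exteriorPower.ιMulti_family_linearIndependent_field (n := m) h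
    have hs : (Finset.univ : Finset (Fin m)) ∈ Set.powersetCard (Fin m) m := by
      simp [Set.powersetCard]
    have h2 := h1.ne_zero ⟨Finset.univ, hs⟩
    apply h2
    apply Subtype.ext
    rw [exteriorPower.ιMulti_family_apply_coe, ExteriorAlgebra.ιMulti_family]
    have hf : ((Set.powersetCard.ofFinEmbEquiv.symm
        (⟨Finset.univ, hs⟩ : Set.powersetCard (Fin m) m) : Fin m ↪o Fin m) : Fin m → Fin m) = id := by
      refine (StrictMono.range_inj (OrderEmbedding.strictMono _) strictMono_id).1 ?_
      rw [Set.range_id]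
      exact (Finite.injective_iff_surjective.1 (RelEmbedding.injective _)).range_eq
    rw [hf, Function.comp_id, h0]
    rfl

theorem li_append_iff {F V : Type} [Field F] [AddCommGroup V] [Module F V] {p q : ℕ}
    (W W' : Submodule F V) (a : Module.Basis (Fin p) F W) (b : Module.Basis (Fin q) F W') :
    LinearIndependent F (Fin.append (fun i => (a i : V)) (fun i => (b i : V))) ↔
      Disjoint W W' := by
  rw [← linearIndependent_equiv finSumFinEquiv, linearIndependent_sum]
  have e1 : (Fin.append (fun i => (a i : V)) (fun i => (b i : V)) ∘ finSumFinEquiv) ∘ Sum.inl =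
      W.subtype ∘ a := by
    funext i
    simp
  have e2 : (Fin.append (fun i => (a i : V)) (fun i => (b i : V)) ∘ finSumFinEquiv) ∘ Sum.inr =
      W'.subtype ∘ b := by
    funext i
    simp
  rw [e1, e2, Set.range_comp, Set.range_comp, ← Submodule.map_span, ← Submodule.map_span,
    a.span_eq, b.span_eq, Submodule.map_subtype_top, Submodule.map_subtype_top]
  have h1 : LinearIndependent F (W.subtype ∘ a) :=
    a.linearIndependent.map' _ (Submodule.ker_subtype _)
  have h2 : LinearIndependent F (W'.subtype ∘ b) :=
    b.linearIndependent.map' _ (Submodule.ker_subtype _)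
  exact ⟨fun h => h.2.2, fun h => ⟨h1, h2, h⟩⟩

/-- The products of the vectors of a basis, over all subsets of the basis. -/
noncomputable def prodOf {F V : Type} [Field F] [AddCommGroup V] [Module F V] {N : ℕ}
    (β : Fin N → V) (T : Finset (Fin N)) : ExteriorAlgebra F V :=
  ExteriorAlgebra.ιMulti_family F T.card β ⟨T, rfl⟩

theorem iMulti_mem_span {F V : Type} [Field F] [AddCommGroup V] [Module F V] {N m : ℕ}
    (β : Fin N → V) (hβ : Submodule.span F (Set.range β) = ⊤) (v : Fin m → V) :
    ExteriorAlgebra.ιMulti F m v ∈ Submodule.span F (Set.range (prodOf (F := F) β)) := by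
  have h1 : ExteriorAlgebra.ιMulti F m v ∈ ⋀[F]^m V := by
    rw [← exteriorPower.ιMulti_apply_coe]
    exact Submodule.coe_mem _
  rw [← exteriorPower.ιMulti_family_span_fixedDegree_of_span F hβ] at h1
  refine Submodule.span_mono ?_ h1
  rintro _ ⟨⟨T, hT⟩, rfl⟩
  refine ⟨T, ?_⟩
  have hT' : T.card = m := hT
  subst hT'
  rfl

theorem IsSkewAt.coverRankAt {n N : ℕ} {G : SimpleGraph (Fin n)} {X : Set (Fin n)}
    (h : IsSkewAt N G X) : CoverRankAt (4 ^ N) G X := by
  classical
  obtain ⟨F, iF, W, hadj⟩ := h
  let β : Fin N → (Fin N → F) := Pi.basisFun F (Fin N)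
  have hβ : Submodule.span F (Set.range β) = ⊤ := (Pi.basisFun F (Fin N)).span_eq
  let e : Finset (Fin N) → ExteriorAlgebra F (Fin N → F) := prodOf β
  let E : Submodule F (ExteriorAlgebra F (Fin N → F)) := Submodule.span F (Set.range e)
  let bs : ∀ u : Fin n, Module.Basis (Fin (Module.finrank F (W u))) F (W u) :=
    fun u => Module.finBasis F (W u)
  let w : Fin n → ExteriorAlgebra F (Fin N → F) :=
    fun u => ExteriorAlgebra.ιMulti F _ fun i => (bs u i : Fin N → F)
  have : Module.Finite F E := Module.Finite.span_of_finite F (Set.finite_range e)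
  have hE : Module.finrank F E ≤ 2 ^ N := by
    have := finrank_range_le_card (R := F) e
    rwa [Fintype.card_finset, Fintype.card_fin] at this
  let c := Module.finBasis F E
  choose φ hφ using fun j => LinearMap.exists_extend (p := E) (c.coord j)
  have hwE : ∀ u v, w u * w v ∈ E := by
    intro u v
    rw [ExteriorAlgebra.ιMulti_mul_ιMulti]
    exact iMulti_mem_span β hβ _
  have hne : ∀ u v, (w u * w v ≠ 0 ↔ Disjoint (W u) (W v)) := by
    intro u v
    rw [ExteriorAlgebra.ιMulti_mul_ιMulti, iMulti_ne_zero_iff]
    exact li_append_iff (W u) (W v) (bs u) (bs v)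
  have hex : ∀ u, ∃ a : Finset (Fin N) → F, ∑ T, a T • e T = w u := fun u =>
    (Submodule.mem_span_range_iff_exists_fun F).1 (iMulti_mem_span β hβ _)
  choose a ha using hex
  refine ⟨Module.finrank F E, fun _ => F, fun _ => iF, fun j => Matrix.of fun (u : X) v =>
    φ j (w u * w v), fun u v huv => ?_, ?_⟩
  · rw [hadj u u.2 v huv, ← hne]
    constructor
    · intro h0
      by_contra hall
      push Not at hall
      apply h0
      have h1 : (⟨w u * w v, hwE u v⟩ : E) = 0 := by
        apply c.ext_elem
        intro j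
        have h2 := LinearMap.congr_fun (hφ j) ⟨w u * w v, hwE u v⟩
        have h3 : φ j (w u * w v) = 0 := hall j
        rw [map_zero, Finsupp.zero_apply]
        rw [LinearMap.comp_apply, Submodule.subtype_apply, h3] at h2
        exact h2.symm
      exact congrArg Subtype.val h1
    · rintro ⟨j, hj⟩ h0
      have hj' : φ j (w u * w v) ≠ 0 := hj
      rw [h0, map_zero] at hj'
      exact hj' rfl
  · have h1 : ∀ j, (Matrix.of fun (u : X) v => φ j (w u * w v)).rank ≤ 2 ^ N := by
      intro j
      have h2 := rank_le_of_sum (Matrix.of fun (u : X) v => φ j (w u * w v))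
        (fun u T => a u T) (fun T v => φ j (e T * w v)) (by
          intro u v
          rw [Matrix.of_apply, ← ha u, Finset.sum_mul, map_sum]
          refine Finset.sum_congr rfl fun T _ => ?_
          rw [smul_mul_assoc, map_smul, smul_eq_mul])
      rwa [Fintype.card_finset, Fintype.card_fin] at h2
    calc _ ≤ ∑ _j : Fin (Module.finrank F E), 2 ^ N := Finset.sum_le_sum fun j _ => h1 j
      _ = Module.finrank F E * 2 ^ N := by simp
      _ ≤ 2 ^ N * 2 ^ N := Nat.mul_le_mul_right _ hE
      _ = 4 ^ N := by rw [← mul_pow]; norm_num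

end Vale.Agent.P305.R2.H631
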